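import Vale.Agent.P164.All

open Set MeasureTheory ProbabilityTheory Vale.Agent.P164
open scoped ENNReal NNReal

universe u

theorem Vale.Agent.Results.P164.Gauge.result :
    ∀ κ : ℝ, 0 < κ → κ < 8 →
      IsGauge (gauge κ) ∧
      (∀ r : ℝ, 0 < r → r ≤ 1 / 16 → gauge κ r =
        r ^ (1 + κ / 8) * Real.log (Real.log (1 / r)) ^ ((2 - (1 + κ / 8)) / 2)) ∧
      ∀ (Ω : Type u) [MeasurableSpace Ω] (P : Measure Ω) (B : ℝ≥0 → Ω → ℝ), IsBrownianReal B P →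
        ∀ᵐ ω ∂P, ∀ γ : ℝ → ℂ, Generates (fun t => √κ * B t.toNNReal ω) γ →
          ∀ s t : ℝ, 0 < s → s < t →
            0 < hausd (gauge κ) (γ '' Icc s t) ∧ hausd (gauge κ) (γ '' Icc s t) < ⊤ :=
  fin_of wien gaugeS (cover gaugeS) all_curve all_main.1 all_main.2
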